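import Vale.Agent.P062.Top

/-!
# P062: Maker wins the Snaky achievement game on the empty planar board
-/

namespace Vale.Agent.Results.P062.SnakyWins

open Vale.Agent.P062

/-- There are a strategy `s` for Maker on the initially empty board and a number `N` such that,
whatever legal claims Breaker makes, all claims of Maker are legal and Maker owns an allowed copy
of Snaky after at most `N` claims. -/
theorem result : ∃ (s : List Cell → Cell) (N : ℕ), WinsWithin s N :=
  maker_wins

end Vale.Agent.Results.P062.SnakyWins
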